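import Crest.Agent.R189.Defs

/-! Row 189: basic facts on subshifts and hierarchies. -/

set_option autoImplicit false

namespace Crest.Agent.R189

open Filter Topology

theorem box_mono {r s : ℕ} (h : r ≤ s) : box r ⊆ box s := fun u hu => by
  rw [mem_box] at *; omega

theorem add_mem_box {r s : ℕ} {u v : V} (hu : u ∈ box r) (hv : v ∈ box s) :
    u + v ∈ box (r + s) := by
  rw [mem_box] at *; simp only [Prod.fst_add, Prod.snd_add]; push_cast; omega

theorem neg_mem_box {r : ℕ} {u : V} (hu : u ∈ box r) : -u ∈ box r := by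
  rw [mem_box] at *; simp only [Prod.fst_neg, Prod.snd_neg]; omega

theorem zero_mem_box (r : ℕ) : (0 : V) ∈ box r := by
  rw [mem_box]; simp

theorem exists_mem_box (u : V) : ∃ r, u ∈ box r :=
  ⟨u.1.natAbs + u.2.natAbs, by rw [mem_box]; omega⟩

theorem exists_subset_box (s : Finset V) : ∃ r, s ⊆ box r := by
  classical
  induction s using Finset.induction_on with
  | empty => exact ⟨0, Finset.empty_subset _⟩
  | insert u s _ ih =>
    obtain ⟨r, hr⟩ := ih
    obtain ⟨r', hr'⟩ := exists_mem_box u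
    exact ⟨max r r', Finset.insert_subset (box_mono (le_max_right _ _) hr')
      (hr.trans (box_mono (le_max_left _ _)))⟩

namespace SFT

variable {X : SFT}

theorem agree.refl (r : ℕ) (x : X.Pt) : agree r x x := fun _ _ => rfl
theorem agree.symm {r : ℕ} {x y : X.Pt} (h : agree r x y) : agree r y x :=
  fun u hu => (h u hu).symm
theorem agree.trans {r : ℕ} {x y z : X.Pt} (h : agree r x y) (h' : agree r y z) : agree r x z :=
  fun u hu => (h u hu).trans (h' u hu)
theorem agree.mono {r s : ℕ} {x y : X.Pt} (h : agree s x y) (hrs : r ≤ s) : agree r x y :=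
  fun u hu => h u (box_mono hrs hu)
theorem agree.vadd {r s : ℕ} {x y : X.Pt} (h : agree (r + s) x y) {v : V} (hv : v ∈ box s) :
    agree r (v +ᵥ x) (v +ᵥ y) := fun _ hu => h _ (add_mem_box hu hv)

theorem Pt.ext {x y : X.Pt} (h : ∀ u, x.1 u = y.1 u) : x = y := Subtype.ext (funext h)

theorem isClopen_cyl (v : V) (a : X.A) : IsClopen (cyl v a) :=
  (isClopen_discrete {a}).preimage (continuous_val v)

theorem isClopen_agree (r : ℕ) (x : X.Pt) : IsClopen {y | agree r x y} := by
  have : {y | agree r x y} = ⋂ u ∈ box r, cyl u (x.1 u) := by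
    ext y; simp only [agree, cyl, Set.mem_iInter]; exact forall₂_congr fun _ _ => eq_comm
  rw [this]
  exact isClopen_biInter_finset fun u _ => isClopen_cyl u _

/-- windows are a neighbourhood basis -/
theorem mem_nhds_iff {x : X.Pt} {U : Set X.Pt} :
    U ∈ 𝓝 x ↔ ∃ r, ∀ y, agree r x y → y ∈ U := by
  constructor
  · intro h
    obtain ⟨W, hW, hWU⟩ := (mem_nhds_subtype _ _ _).1 h
    rw [nhds_pi, Filter.mem_pi'] at hW
    obtain ⟨I, t, ht, hI⟩ := hW
    obtain ⟨r, hr⟩ := exists_subset_box I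
    refine ⟨r, fun y hy => hWU (hI fun u hu => ?_)⟩
    have := mem_of_mem_nhds (ht u)
    rwa [← hy u (hr hu)]
  · rintro ⟨r, hr⟩
    exact mem_of_superset ((isClopen_agree r x).isOpen.mem_nhds (agree.refl r x)) hr

/-- locally constant = determined by a window -/
theorem isLocallyConstant_iff {β : Type*} {f : X.Pt → β} :
    IsLocallyConstant f ↔ ∃ r, ∀ x y, agree r x y → f x = f y := by
  constructor
  · intro hf
    have h1 : ∀ x : X.Pt, ∃ r, ∀ y, agree r x y → f y = f x := fun x =>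
      mem_nhds_iff.1 (hf.eventually_eq x)
    choose ρ hρ using h1
    obtain ⟨t, ht⟩ := isCompact_univ.elim_finite_subcover (fun x : X.Pt => {y | agree (ρ x) x y})
      (fun x => (isClopen_agree _ x).isOpen)
      (fun x _ => Set.mem_iUnion.2 ⟨x, agree.refl _ x⟩)
    refine ⟨t.sup ρ, fun x y hxy => ?_⟩
    obtain ⟨z, hz, hzx⟩ := Set.mem_iUnion₂.1 (ht (Set.mem_univ x))
    rw [hρ z x hzx, hρ z y (agree.trans hzx (hxy.mono (Finset.le_sup hz)))]
  · rintro ⟨r, hr⟩
    exact (IsLocallyConstant.iff_eventually_eq f).2 fun x =>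
      mem_nhds_iff.2 ⟨r, fun y hy => (hr x y hy).symm⟩

theorem isClopen_iff {U : Set X.Pt} :
    IsClopen U ↔ ∃ r, ∀ x y, agree r x y → (x ∈ U ↔ y ∈ U) := by
  constructor
  · intro h
    have : IsLocallyConstant (fun x => x ∈ U) := by
      refine (IsLocallyConstant.iff_eventually_eq _).2 fun x => ?_
      by_cases hx : x ∈ U
      · exact mem_of_superset (h.isOpen.mem_nhds hx) fun y hy => by simp [hx, hy]
      · exact mem_of_superset (h.compl.isOpen.mem_nhds hx) fun y hy => by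
          simp only [Set.mem_compl_iff] at hy; simp [hx, hy]
    obtain ⟨r, hr⟩ := isLocallyConstant_iff.1 this
    exact ⟨r, fun x y hxy => (hr x y hxy).to_iff⟩
  · rintro ⟨r, hr⟩
    exact ⟨⟨isOpen_iff_mem_nhds.2 fun x hx => mem_nhds_iff.2 ⟨r, fun y hy hy' =>
        hx ((hr x y hy).2 hy')⟩⟩,
      isOpen_iff_mem_nhds.2 fun x hx => mem_nhds_iff.2 ⟨r, fun y hy => (hr x y hy).1 hx⟩⟩

/-- König: a configuration all of whose windows occur in `X` is in `X` -/
theorem mem_of_windows {x : V → X.A} (h : ∀ r, ∃ y ∈ X.X, ∀ u ∈ box r, y u = x u) : x ∈ X.X := by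
  refine X.sft x fun v => ?_
  obtain ⟨s, hs⟩ := exists_mem_box v
  obtain ⟨y, hy, hyx⟩ := h (X.R0 + s)
  exact ⟨_, X.shift_mem y hy v, fun u hu => hyx _ (add_mem_box hu hs)⟩

theorem Good.isMinimal (g : X.Good) : AddAction.IsMinimal V X.Pt :=
  ⟨fun x => dense_iff_inter_open.2 fun U hU ⟨y, hy⟩ => by
    obtain ⟨r, hr⟩ := mem_nhds_iff.1 (hU.mem_nhds hy)
    obtain ⟨v, hv⟩ := g.minimal x y r
    exact ⟨v +ᵥ x, hr _ hv.symm, v, rfl⟩⟩

end SFT

namespace Hier

variable {X : Type} [TopologicalSpace X] [AddAction V X] (H : Hier X)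

theorem q_lt_succ (s : ℕ) : H.q s < H.q (s + 1) := by
  rw [H.q_succ]; have := H.a_ge s; have := H.q_pos s; nlinarith

theorem q_strictMono : StrictMono H.q := strictMono_nat_of_lt_succ H.q_lt_succ

theorem q_tend : Tendsto H.q atTop atTop := H.q_strictMono.tendsto_atTop

theorem le_q (s : ℕ) : s ≤ H.q s := H.q_strictMono.le_apply

theorem q_dvd {s t : ℕ} (h : s ≤ t) : H.q s ∣ H.q t := by
  induction t, h using Nat.le_induction with
  | base => rfl
  | succ t _ ih => rw [H.q_succ]; exact ih.mul_left _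

theorem ph_le {s t : ℕ} (h : s ≤ t) {x : X} (hx : H.ph t x = 0) : H.ph s x = 0 := by
  induction t, h using Nat.le_induction with
  | base => exact hx
  | succ t _ ih => exact ih (H.ph_succ t x hx)

theorem ph_vadd_eq_zero_iff {t : ℕ} {x : X} (hx : H.ph t x = 0) (v : V) :
    H.ph t (v +ᵥ x) = 0 ↔ (H.q t : ℤ) ∣ v.1 ∧ (H.q t : ℤ) ∣ v.2 := by
  rw [H.ph_vadd, hx, add_zero, Prod.mk_eq_zero, ZMod.intCast_zmod_eq_zero_iff_dvd,
    ZMod.intCast_zmod_eq_zero_iff_dvd]

/-- position of the origin inside its level-`t` tile, in `[0, q t)²` -/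
def pos (t : ℕ) (x : X) : V := (((H.ph t x).1.val : ℤ), ((H.ph t x).2.val : ℤ))

theorem pos_bounds (t : ℕ) (x : X) : (0 ≤ (H.pos t x).1 ∧ (H.pos t x).1 < H.q t) ∧
    (0 ≤ (H.pos t x).2 ∧ (H.pos t x).2 < H.q t) := by
  haveI : NeZero (H.q t) := ⟨(H.q_pos t).ne'⟩
  simp only [pos]
  exact ⟨⟨by positivity, by exact_mod_cast ZMod.val_lt _⟩,
    ⟨by positivity, by exact_mod_cast ZMod.val_lt _⟩⟩

theorem ph_neg_pos (t : ℕ) (x : X) : H.ph t (-H.pos t x +ᵥ x) = 0 := by
  haveI : NeZero (H.q t) := ⟨(H.q_pos t).ne'⟩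
  rw [H.ph_vadd]
  ext <;> simp [pos]

include H in
/-- freeness -/
theorem eq_zero_of_vadd_eq {v : V} {x : X} (h : v +ᵥ x = x) : v = 0 := by
  have key : ∀ t, (H.q t : ℤ) ∣ v.1 ∧ (H.q t : ℤ) ∣ v.2 := fun t => by
    rw [← H.ph_vadd_eq_zero_iff (H.ph_neg_pos t x), vadd_comm, h]
    exact H.ph_neg_pos t x
  have h1 : ∀ z : ℤ, (∀ t, (H.q t : ℤ) ∣ z) → z = 0 := fun z hz => by
    have := H.le_q (z.natAbs + 1)
    exact Int.eq_zero_of_dvd_of_natAbs_lt_natAbs (hz (z.natAbs + 1)) (by simp; omega)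
  exact Prod.ext (h1 _ fun t => (key t).1) (h1 _ fun t => (key t).2)

include H in
theorem vadd_injective (x : X) : Function.Injective fun v : V => v +ᵥ x := fun v w h => by
  have h' : v +ᵥ x = w +ᵥ x := h
  have : (v - w) +ᵥ x = x := by
    rw [sub_eq_neg_add, add_vadd, h', neg_vadd_vadd]
  exact sub_eq_zero.1 (H.eq_zero_of_vadd_eq this)

include H in
theorem isCancelVAdd : IsCancelVAdd V X where
  left_cancel' := fun v _ _ h => AddAction.injective v h
  right_cancel' := fun _ _ x h => H.vadd_injective x h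

/-- a point with an infinite-level corner at the origin -/
theorem exists_corner [CompactSpace X] [Nonempty X] : ∃ x : X, ∀ t, H.ph t x = 0 := by
  have := IsCompact.nonempty_iInter_of_sequence_nonempty_isCompact_isClosed
    (fun t => {x : X | H.ph t x = 0}) (fun t x hx => H.ph_succ t x hx)
    (fun t => ⟨_, H.ph_neg_pos t (Classical.arbitrary X)⟩)
    ((H.ph_lc 0).isClopen_fiber 0).isClosed.isCompact
    (fun t => ((H.ph_lc t).isClopen_fiber 0).isClosed)
  obtain ⟨x, hx⟩ := this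
  exact ⟨x, Set.mem_iInter.1 hx⟩

end Hier

end Crest.Agent.R189
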