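import Crest.Agent.R189.Iface
import Crest.Agent.R189.Basic

/-! Row 189: Boolean realisation of pairwise compatible cell conditions. -/

set_option autoImplicit false

namespace Crest.Agent.R189

open SFT COMP

variable {X : SFT} {C : Type} [COMP C] {e : V → X.A → C}

/-- every point of a block containing the cells is a point of the subshift -/
theorem SFT.Cells.exists_conf (h : X.Cells C e) (B : Blk C) (hB : ∀ v a, e v a ∈ B) (x : R189.Pt B) :
    ∃ y : X.Pt, ∀ v a, x.p (e v a) ↔ y.1 v = a := by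
  classical
  have hex : ∀ v, ∃ a, x.p (e v a) := fun v => by
    have hm : ∀ a ∈ (Finset.univ : Finset X.A), e v a ∈ B := fun a _ => hB v a
    have h1 : jn Finset.univ (e v) = ⊤ :=
      h.cover v _ fun a => (FCp.of_blk B hm).le_jn (Finset.mem_univ a)
    have h2 := x.top
    rw [← h1, x.jn hm] at h2
    obtain ⟨a, -, ha⟩ := h2
    exact ⟨a, ha⟩
  choose f hf using hex
  have huniq : ∀ v a, x.p (e v a) ↔ f v = a := fun v a =>
    ⟨fun ha => by
      by_contra hne
      exact x.not_of_orth (hB _ _) (hB _ _) (h.orth v _ _ hne) (hf v) ha,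
     fun ha => ha ▸ hf v⟩
  refine ⟨⟨f, X.sft f fun v => ?_⟩, huniq⟩
  by_contra hno
  have hm : ∀ u ∈ box X.R0, e (u + v) (f (u + v)) ∈ B := fun u _ => hB _ _
  have h0 := h.rule v (fun u => f (u + v)) hno (mt (box X.R0) fun u => e (u + v) (f (u + v)))
    fun u hu => (FCp.of_blk B hm).mt_le hu
  have h1 : x.p (mt (box X.R0) fun u => e (u + v) (f (u + v))) := (x.mt hm).2 fun u _ => hf _
  rw [h0] at h1
  exact x.not_bot h1

theorem s_BR : S_BR := by
  classical
  intro X C _ e h hcp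
  have hS : PCp {c : C | ∃ v a, c = e v a} := by
    rintro _ ⟨v, a, rfl⟩ _ ⟨w, b, rfl⟩
    exact hcp v w a b
  have hB : ∀ v a, e v a ∈ hS.blk := fun v a => Gen.of ⟨v, a, rfl⟩
  generalize hS.blk = B at hB
  choose conf hconf using h.exists_conf B hB
  have key : ∀ U : Set X.Pt, ∃ c : C, IsClopen U → c ∈ B ∧ ∀ x : R189.Pt B, x.p c ↔ conf x ∈ U := by
    intro U
    by_cases hU : IsClopen U
    swap
    · exact ⟨⊥, fun h' => absurd h' hU⟩
    obtain ⟨r, hr⟩ := SFT.isClopen_iff.1 hU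
    let P : Finset (box r → X.A) := Finset.univ.filter fun p => ∃ y ∈ U, ∀ u : box r, y.1 u = p u
    let g : (box r → X.A) → C := fun p => mt Finset.univ fun u : box r => e u (p u)
    have hg : ∀ p, g p ∈ B := fun p => B.mt_mem fun u _ => hB _ _
    refine ⟨jn P g, fun _ => ⟨B.jn_mem fun p _ => hg p, fun x => ?_⟩⟩
    rw [x.jn fun p _ => hg p]
    constructor
    · rintro ⟨p, hp, hx⟩
      obtain ⟨y, hy, hyp⟩ := (Finset.mem_filter.1 hp).2
      rw [x.mt fun u _ => hB _ _] at hx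
      refine (hr y (conf x) fun u hu => ?_).1 hy
      rw [hyp ⟨u, hu⟩]
      exact ((hconf x _ _).1 (hx ⟨u, hu⟩ (Finset.mem_univ _))).symm
    · intro hx
      refine ⟨fun u => (conf x).1 u, Finset.mem_filter.2 ⟨Finset.mem_univ _, conf x, hx,
        fun _ => rfl⟩, ?_⟩
      rw [x.mt fun u _ => hB _ _]
      exact fun u _ => (hconf x _ _).2 rfl
  choose Φ hΦ using key
  refine ⟨Φ, fun v a => ?_, ?_, fun U hU => ?_, fun U U' hU hU' => ⟨?_, ?_⟩⟩
  · obtain ⟨h1, h2⟩ := hΦ _ (isClopen_cyl v a)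
    exact B.eq_of_pt h1 (hB v a) fun x => (h2 x).trans (hconf x v a).symm
  · obtain ⟨h1, h2⟩ := hΦ _ isClopen_empty
    exact B.eq_bot_of_pt h1 fun x hx => (h2 x).1 hx
  · obtain ⟨h1, h2⟩ := hΦ _ hU
    obtain ⟨h3, h4⟩ := hΦ _ hU.compl
    exact B.eq_of_pt h3 (B.compl' h1) fun x => by
      rw [h4, x.compl h1, h2]; rfl
  · exact B.cp' (hΦ _ hU).1 (hΦ _ hU').1
  · obtain ⟨h1, h2⟩ := hΦ _ hU
    obtain ⟨h3, h4⟩ := hΦ _ hU'
    obtain ⟨h5, h6⟩ := hΦ _ (hU.inter hU')
    exact B.eq_of_pt h5 (B.inf' h1 h3) fun x => by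
      rw [h6, x.inf h1 h3, h2, h4]; rfl

end Crest.Agent.R189
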