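import Crest.Agent.R189.Full.Defs
import Crest.Agent.R189.B1.Comp
import Crest.Prelude.Def_Amenable

/-!
Row 189 (finitely presented infinite simple amenable group).  Shared definitions.
See notes189/lead.md.  `X : SFT` is a `ℤ²`-subshift of finite type, the group `X.S` acts on
`X.Pt × Lv` (12 levels).
-/

set_option autoImplicit false

namespace Crest.Agent.R189

open Equiv Filter
open scoped Pointwise

abbrev V := ℤ × ℤ
abbrev Lv := Fin 12

/-- the square window `[-r, r]²` -/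
noncomputable def box (r : ℕ) : Finset V := Finset.Icc (-(r : ℤ)) r ×ˢ Finset.Icc (-(r : ℤ)) r

theorem mem_box {r : ℕ} {u : V} :
    u ∈ box r ↔ (-(r : ℤ) ≤ u.1 ∧ u.1 ≤ r) ∧ (-(r : ℤ) ≤ u.2 ∧ u.2 ≤ r) := by
  simp [box]

/-- unit vectors: `ev true = (1,0)`, `ev false = (0,1)` -/
def ev (b : Bool) : V := if b then (1, 0) else (0, 1)

/-- coordinates with or without transposition: `xy true i j = (i,j)`, `xy false i j = (j,i)` -/
def xy (b : Bool) (i j : ℤ) : V := if b then (i, j) else (j, i)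

/-- a non-empty `ℤ²`-subshift of finite type, defined by its windows of radius `R0` -/
structure SFT where
  A : Type
  [fin : Fintype A]
  [dec : DecidableEq A]
  X : Set (V → A)
  shift_mem : ∀ x ∈ X, ∀ v : V, (fun u => x (u + v)) ∈ X
  R0 : ℕ
  sft : ∀ x : V → A, (∀ v : V, ∃ y ∈ X, ∀ u ∈ box R0, y u = x (u + v)) → x ∈ X
  ne : X.Nonempty

attribute [instance] SFT.fin SFT.dec

namespace SFT

variable (X : SFT)

/-- points of the subshift -/
def Pt : Type := {x : V → X.A // x ∈ X.X}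

/-- the shift action: `(v +ᵥ x).1 u = x.1 (u + v)` -/
instance : AddAction V X.Pt where
  vadd v x := ⟨fun u => x.1 (u + v), X.shift_mem x.1 x.2 v⟩
  zero_vadd x := Subtype.ext (funext fun u => by
    show x.1 (u + 0) = x.1 u
    rw [add_zero])
  add_vadd v w x := Subtype.ext (funext fun u => by
    show x.1 (u + (v + w)) = x.1 (u + v + w)
    rw [add_assoc])

variable {X}

@[simp] theorem vadd_val (v : V) (x : X.Pt) (u : V) : (v +ᵥ x).1 u = x.1 (u + v) := rfl

/-- `x` and `y` agree on the window of radius `r` -/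
def agree (r : ℕ) (x y : X.Pt) : Prop := ∀ u ∈ box r, x.1 u = y.1 u

/-- cylinder: letter `a` at position `v` -/
def cyl (v : V) (a : X.A) : Set X.Pt := {x | x.1 v = a}

/-- product topology, letters discrete -/
instance : TopologicalSpace X.A := ⊥
instance : DiscreteTopology X.A := ⟨rfl⟩
instance : TopologicalSpace X.Pt := instTopologicalSpaceSubtype
instance : T2Space X.Pt := inferInstanceAs (T2Space {x : V → X.A // x ∈ X.X})
instance : TotallyDisconnectedSpace X.Pt :=
  inferInstanceAs (TotallyDisconnectedSpace {x : V → X.A // x ∈ X.X})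
instance : Nonempty X.Pt := X.ne.to_subtype

theorem continuous_val (u : V) : Continuous fun x : X.Pt => x.1 u :=
  (continuous_apply u).comp continuous_subtype_val

instance : ContinuousConstVAdd V X.Pt :=
  ⟨fun v => Continuous.subtype_mk (continuous_pi fun u => continuous_val (u + v)) _⟩

theorem isClosed_X : IsClosed X.X := by
  have h : X.X = ⋂ v : V, ⋃ p ∈ {p : box X.R0 → X.A | ∃ y ∈ X.X, ∀ u : box X.R0, y u = p u},
      ⋂ u : box X.R0, {x : V → X.A | x (u + v) = p u} := by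
    ext x
    simp only [Set.mem_iInter, Set.mem_iUnion, Set.mem_setOf_eq, exists_prop]
    constructor
    · intro hx v
      exact ⟨fun u => x (u + v), ⟨_, X.shift_mem x hx v, fun _ => rfl⟩, fun _ => rfl⟩
    · intro hx
      refine X.sft x fun v => ?_
      obtain ⟨p, ⟨y, hy, hp⟩, hxp⟩ := hx v
      exact ⟨y, hy, fun u hu => (hp ⟨u, hu⟩).trans (hxp ⟨u, hu⟩).symm⟩
  rw [h]
  refine isClosed_iInter fun v => (Set.toFinite _).isClosed_biUnion fun p _ => ?_
  exact isClosed_iInter fun u => isClosed_eq (continuous_apply _) continuous_const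

instance : CompactSpace X.Pt := isCompact_iff_compactSpace.mp isClosed_X.isCompact

variable (X) in
/-- THE GROUP (see `R189/Full/Defs`) -/
abbrev S : Subgroup (Perm (X.Pt × Lv)) := SG V X.Pt 12

end SFT

/-- the hierarchy of square grids: `ph t x` = position of the origin in its level-`t` tile
(side `q t`); `ph t x = 0` = the origin is the SW corner cell of a level-`t` tile -/
structure Hier (X : Type) [TopologicalSpace X] [AddAction V X] where
  q : ℕ → ℕ
  a : ℕ → ℕ
  q_pos : ∀ s, 0 < q s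
  q_succ : ∀ s, q (s + 1) = a s * q s
  a_ge : ∀ s, 2 ≤ a s
  a_tend : Tendsto a atTop atTop
  ph : ∀ t, X → ZMod (q t) × ZMod (q t)
  ph_lc : ∀ t, IsLocallyConstant (ph t)
  ph_vadd : ∀ (t : ℕ) (v : V) (x : X),
    ph t (v +ᵥ x) = ((v.1 : ZMod (q t)), (v.2 : ZMod (q t))) + ph t x
  ph_succ : ∀ (t : ℕ) (x : X), ph (t + 1) x = 0 → ph t x = 0

/-- COUNT (input of B4): sums of locally constant functions mod `m` over a (shifted) level-`t`
tile, over one of its rows and one of its columns depend on boundedly many data -/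
def Hier.Count {X : Type} [TopologicalSpace X] [AddAction V X] (H : Hier X) : Prop :=
  ∀ m : ℕ, 0 < m → ∃ B : ℕ, ∀ (ι : Type) [Fintype ι] (h : ι → X → ZMod m),
    (∀ i, IsLocallyConstant (h i)) → ∀ t0 : ℕ, ∃ t : ℕ, t0 ≤ t ∧ ∃ (o : V) (cls : X → Fin B),
      IsLocallyConstant cls ∧ ∀ x y : X, H.ph t x = 0 → H.ph t y = 0 → cls x = cls y → ∀ i,
        (∑ u ∈ Finset.range (H.q t), ∑ w ∈ Finset.range (H.q t),
            h i ((o + ((u : ℤ), (w : ℤ))) +ᵥ x) =
          ∑ u ∈ Finset.range (H.q t), ∑ w ∈ Finset.range (H.q t),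
            h i ((o + ((u : ℤ), (w : ℤ))) +ᵥ y)) ∧
        (∑ u ∈ Finset.range (H.q t), h i ((o + ((u : ℤ), (0 : ℤ))) +ᵥ x) =
          ∑ u ∈ Finset.range (H.q t), h i ((o + ((u : ℤ), (0 : ℤ))) +ᵥ y)) ∧
        (∑ w ∈ Finset.range (H.q t), h i ((o + ((0 : ℤ), (w : ℤ))) +ᵥ x) =
          ∑ w ∈ Finset.range (H.q t), h i ((o + ((0 : ℤ), (w : ℤ))) +ᵥ y))

/-- points with an infinite-level wall through the origin (`b = true`: the vertical line west of
column `0`; `b = false`: the horizontal line south of row `0`) -/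
def Hier.Y {X : Type} [TopologicalSpace X] [AddAction V X] (H : Hier X) (b : Bool) : Set X :=
  {x | ∀ s, ∃ j : ℤ, H.ph s (xy b 0 j +ᵥ x) = 0}

/-- WALL (input of B6): structure of the level-`(s+1)` tiles along an infinite wall (coordinates
`xy b i j`, `i` = distance from the wall): a periodic zone above the diagonal, common to all
tiles, and boundedly many types of the rest. -/
def SFT.Wall {X : SFT} (H : Hier X.Pt) (b : Bool) : Prop :=
  ∃ m T : ℕ, ∀ s : ℕ,
    (∃ per : ℤ → ℤ → X.A, (∀ i j, per i (j + H.q s) = per i j) ∧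
      ∀ x ∈ H.Y b, H.ph (s + 1) x = 0 → ∀ i j : ℤ, (m * H.q s : ℤ) ≤ i → i + m * H.q s ≤ j →
        j < ((H.a s : ℤ) - m) * H.q s → x.1 (xy b i j) = per i j) ∧
    (∃ P : Finset (ℤ → ℤ → X.A), P.card ≤ T ∧
      ∀ x ∈ H.Y b, H.ph (s + 1) x = 0 → ∃ p ∈ P, ∀ i j : ℤ, (m * H.q s : ℤ) ≤ i →
        i < ((H.a s : ℤ) - m) * H.q s → -(m * H.q s : ℤ) ≤ j →
        j < ((H.a s : ℤ) - m) * H.q s → x.1 (xy b i j) = p i j)

/-- ZONE (input of B6): along an infinite wall, in the columns `[a, a + K M]`, the rows of height `M` have at most `T`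
patterns, and the pattern repeats except at defect rows, which are more than `K` rows apart. -/
def SFT.Zone {X : SFT} (H : Hier X.Pt) (b : Bool) : Prop :=
  ∃ T : ℕ, ∀ K M0 : ℕ, ∃ (M : ℕ) (a : ℤ) (j : X.Pt → ZMod M) (ρ : X.Pt → Fin T) (D : X.Pt → Prop),
    M0 < M ∧ IsLocallyConstant j ∧ IsLocallyConstant ρ ∧ IsLocallyConstant D ∧
    (∀ y ∈ H.Y b, ∀ c : ℤ, j (xy b 0 c +ᵥ y) = j y + c) ∧
    (∀ y ∈ H.Y b, ∀ y' ∈ H.Y b, j y = 0 → j y' = 0 → ρ y = ρ y' → ∀ i c : ℤ, a ≤ i → i ≤ a + K * M →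
      0 ≤ c → c < M → y.1 (xy b i c) = y'.1 (xy b i c)) ∧
    (∀ y ∈ H.Y b, j y = 0 → ¬ D y → ¬ D (xy b 0 M +ᵥ y) → ρ (xy b 0 M +ᵥ y) = ρ y) ∧
    (∀ y ∈ H.Y b, j y = 0 → D y → ∀ n : ℕ, 0 < n → n ≤ K → ¬ D (xy b 0 (n * M) +ᵥ y))

namespace SFT

variable (X : SFT)

/-- "quantum configurations": cell conditions `e v a` (letter `a` at `v`) that are partitions of
unity, compatible for near cells, and obey the local rules of radius `X.R0` -/
structure Cells (C : Type) [COMP C] (e : V → X.A → C) : Prop where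
  orth : ∀ v a b, a ≠ b → e v a ≤ (e v b)ᶜ
  cover : ∀ v z, (∀ a, e v a ≤ z) → z = ⊤
  near : ∀ v w a b, w - v ∈ box (2 * X.R0) → COMP.Cp (e v a) (e w b)
  rule : ∀ (v : V) (p : V → X.A), (¬ ∃ y ∈ X.X, ∀ u ∈ box X.R0, y u = p u) →
    ∀ z : C, (∀ u ∈ box X.R0, z ≤ e (u + v) (p u)) → z = ⊥

/-- quantum rigidity -/
def Rigid : Prop :=
  ∀ (C : Type) [COMP C] (e : V → X.A → C), X.Cells C e → ∀ v w a b, COMP.Cp (e v a) (e w b)

/-- everything blocks B3-B6 use about the subshift -/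
structure Good where
  H : Hier X.Pt
  rigid : X.Rigid
  minimal : ∀ (x y : X.Pt) (r : ℕ), ∃ v : V, agree r (v +ᵥ x) y
  count : H.Count
  zone : ∀ b, SFT.Zone H b

end SFT

end Crest.Agent.R189
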