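import Crest.Agent.R189.Defs

/-! Row 189: block statements and the assembly. -/

set_option autoImplicit false

namespace Crest.Agent.R189

open Equiv SFT

/-- BR (helper1): Boolean realisation of pairwise compatible cell conditions. -/
def S_BR : Prop :=
  ∀ (X : SFT) (C : Type) [COMP C] (e : V → X.A → C), X.Cells C e →
    (∀ v w a b, COMP.Cp (e v a) (e w b)) →
    ∃ Φ : Set X.Pt → C, (∀ v a, Φ (cyl v a) = e v a) ∧ Φ ∅ = ⊥ ∧
      (∀ U, IsClopen U → Φ Uᶜ = (Φ U)ᶜ) ∧
      (∀ U U', IsClopen U → IsClopen U' →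
        COMP.Cp (Φ U) (Φ U') ∧ Φ (U ∩ U') = Φ U ⊓ Φ U')

/-- B2 (helper3, helper99): the subshift. -/
def S_B2 : Prop := ∃ X : SFT, Nonempty X.Good

/-- B3 (helper95): a finitely presented central extension of `S`.
(Prove it from block B1 and `S_BR`.) -/
def S_B3 : Prop :=
  ∀ (X : SFT) (_ : X.Good), ∃ (Γ : Type) (_ : Group Γ) (π : Γ →* X.S),
    Group.IsFinitelyPresented Γ ∧ Function.Surjective π ∧ π.ker ≤ Subgroup.center Γ

/-- B4 (helper38, helper85): the kernel of a finitely generated central extension is finitely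
generated. -/
def S_B4 : Prop :=
  ∀ (X : SFT) (_ : X.Good) (Γ : Type) [Group Γ] [Group.FG Γ] (π : Γ →* X.S),
    Function.Surjective π → π.ker ≤ Subgroup.center Γ → π.ker.FG

/-- B5 (helper26): simple and infinite. -/
def S_B5 : Prop := ∀ (X : SFT) (_ : X.Good), IsSimpleGroup X.S ∧ Infinite X.S

/-- B6 (helper8, helper69): amenable. -/
def S_B6 : Prop := ∀ (X : SFT) (_ : X.Good), Crest.GroupTheory.Amenable X.S

theorem assemble (h2 : S_B2) (h3 : S_B3) (h4 : S_B4) (h5 : S_B5) (h6 : S_B6) :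
    ∃ (G : Type) (_ : Group G),
      Infinite G ∧ Group.IsFinitelyPresented G ∧ IsSimpleGroup G ∧
        Crest.GroupTheory.Amenable G := by
  obtain ⟨X, ⟨hX⟩⟩ := h2
  obtain ⟨Γ, _, π, hfp, hr, hc⟩ := h3 X hX
  haveI : Group.FG Γ := by
    obtain ⟨n, φ, hφ, -⟩ := hfp.out
    exact Group.fg_of_surjective hφ
  have hk := h4 X hX Γ π hr hc
  refine ⟨X.S, inferInstance, (h5 X hX).2, ?_, (h5 X hX).1, h6 X hX⟩
  refine Group.IsFinitelyPresented.of_surjective π hr ?_
  haveI : Group.FG π.ker := (Group.fg_iff_subgroup_fg _).2 hk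
  exact Subgroup.IsFinitelyNormallyGenerated.of_FG _

end Crest.Agent.R189
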